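import Vale.Agent.P063.Infl
import Vale.Agent.P063.Low3

/-!
# P063: the Friedgut–Kalai threshold-width conjecture, with the exact order of the maximal width

Second hand-in.  Besides the affirmative answers to Q1 and Q2 it contains the matching lower bounds
(for every `r ≥ 2`), so that `W_ε(n) = Θ((log n)^{-2})`, and the influence inequality at every `p`.
-/

namespace Vale.Agent.Results.P063.ExactOrder

open _root_.P063

/-- the upper bound -/
theorem upper (r n : ℕ) (hr : 2 ≤ r) (hn : r ≤ n) (P : Set (Hyper n r)) (hP : IsProperty P)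
    (hup : IsUpperSet P) (hne : P.Nonempty) (hnu : P ≠ Set.univ) (ε : ℝ) (hε : 0 < ε)
    (hε2 : ε < 1 / 2) :
    width ε P ≤ 6272 * r * Real.log (1 / ε) * (Real.log n) ^ (-((r : ℝ) / ((r : ℝ) - 1))) :=
  width_final hr hn (fun p hp0 hp1 d 𝒜 h𝒜 c => bonami p hp0 hp1 d 𝒜 h𝒜 c) P hP hup hne hnu ε hε hε2

theorem greatest (r n : ℕ) (hr : 2 ≤ r) (hn : r ≤ n) (ε : ℝ) :
    IsGreatest (widths ε n r) (maxWidth ε n r) := by
  have hfin : (widths ε n r).Finite := by
    refine (Set.finite_range (fun P : Set (Hyper n r) => width ε P)).subset ?_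
    rintro w ⟨P, _, _, _, _, rfl⟩
    exact ⟨P, rfl⟩
  have hne : (widths ε n r).Nonempty := by
    obtain ⟨P, h1, h2, h3, h4, _⟩ := width_lower r n hr hn
    exact ⟨_, P, h1, h2, h3, h4, rfl⟩
  exact ⟨hne.csSup_mem hfin, fun w hw => le_csSup hfin.bddAbove hw⟩

theorem theta (r : ℕ) (hr : 2 ≤ r) (ε : ℝ) (hε : 0 < ε) (hε2 : ε < 1 / 2) :
    (fun n : ℕ => maxWidth ε n r) =Θ[Filter.atTop]
      (fun n : ℕ => (Real.log n) ^ (-((r : ℝ) / ((r : ℝ) - 1)))) := by
  have hlog1 : 0 < Real.log ((1 - ε) / ε) := by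
    apply Real.log_pos
    rw [lt_div_iff₀ hε]
    linarith
  have hlow : ∀ n : ℕ, r ≤ n →
      ε * Real.exp (-(r * r.factorial)) * Real.log ((1 - ε) / ε) / (2 * r + 3) ^ r *
        (Real.log n) ^ (-((r : ℝ) / ((r : ℝ) - 1))) ≤ maxWidth ε n r := by
    intro n hn
    obtain ⟨P, h1, h2, h3, h4, h5⟩ := width_lower r n hr hn
    exact (h5 ε hε hε2).trans ((greatest r n hr hn ε).2 ⟨P, h1, h2, h3, h4, rfl⟩)
  have hupp : ∀ n : ℕ, r ≤ n → maxWidth ε n r ≤
      6272 * r * Real.log (1 / ε) * (Real.log n) ^ (-((r : ℝ) / ((r : ℝ) - 1))) := by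
    intro n hn
    obtain ⟨P, h1, h2, h3, h4, h5⟩ := (greatest r n hr hn ε).1
    rw [h5]
    exact upper r n hr hn P h1 h2 h3 h4 ε hε hε2
  have hpow : ∀ n : ℕ, 0 ≤ (Real.log n) ^ (-((r : ℝ) / ((r : ℝ) - 1))) := by
    intro n
    apply Real.rpow_nonneg
    exact Real.log_natCast_nonneg n
  set c : ℝ := ε * Real.exp (-(r * r.factorial)) * Real.log ((1 - ε) / ε) / (2 * r + 3) ^ r with hc
  have hc0 : 0 < c := by positivity
  constructor
  · refine Asymptotics.IsBigO.of_bound (6272 * r * Real.log (1 / ε)) ?_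
    filter_upwards [Filter.eventually_ge_atTop r] with n hn
    have h0 : 0 ≤ maxWidth ε n r := le_trans (mul_nonneg hc0.le (hpow n)) (hlow n hn)
    rw [Real.norm_of_nonneg h0, Real.norm_of_nonneg (hpow n)]
    exact hupp n hn
  · refine Asymptotics.IsBigO.of_bound c⁻¹ ?_
    filter_upwards [Filter.eventually_ge_atTop r] with n hn
    have h0 : 0 ≤ maxWidth ε n r := le_trans (mul_nonneg hc0.le (hpow n)) (hlow n hn)
    rw [Real.norm_of_nonneg h0, Real.norm_of_nonneg (hpow n), ← div_eq_inv_mul, le_div_iff₀ hc0,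
      mul_comm]
    exact hlow n hn

/-- (1) For all `r ≥ 2`, `n ≥ r`, `0 < ε < 1/2`: an upper bound for the width of every nontrivial
increasing property, and a property with a matching lower bound; `maxWidth ε n r` is the maximum
of the widths.
(2) Q1 as posed, and the order of `W_ε(n)`.
(3) Q2 as posed, and the order of the maximal width.
(4) Influence inequality at every `p ∈ (0,1)` for every, not necessarily increasing, property. -/
theorem result :
    (∀ r n : ℕ, 2 ≤ r → r ≤ n → ∀ ε : ℝ, 0 < ε → ε < 1 / 2 →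
      (∀ P : Set (Hyper n r), IsProperty P → IsUpperSet P → P.Nonempty → P ≠ Set.univ →
        width ε P ≤ 6272 * r * Real.log (1 / ε) *
          (Real.log n) ^ (-((r : ℝ) / ((r : ℝ) - 1)))) ∧
      (∃ P : Set (Hyper n r), IsProperty P ∧ IsUpperSet P ∧ P.Nonempty ∧ P ≠ Set.univ ∧
        ε * Real.exp (-(r * r.factorial)) * Real.log ((1 - ε) / ε) / (2 * r + 3) ^ r *
          (Real.log n) ^ (-((r : ℝ) / ((r : ℝ) - 1))) ≤ width ε P) ∧
      IsGreatest (widths ε n r) (maxWidth ε n r)) ∧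
    (∀ ε : ℝ, 0 < ε → ε < 1 / 2 →
      (∃ C : ℝ, ∀ n : ℕ, 2 ≤ n → ∀ P : Set (Hyper n 2), IsProperty P → IsUpperSet P →
        P.Nonempty → P ≠ Set.univ → width ε P ≤ C / (Real.log n) ^ 2) ∧
      (fun n : ℕ => maxWidth ε n 2) =Θ[Filter.atTop] (fun n : ℕ => 1 / (Real.log n) ^ 2)) ∧
    (∀ r : ℕ, 3 ≤ r → ∀ ε : ℝ, 0 < ε → ε < 1 / 2 →
      (∃ C : ℝ, ∀ n : ℕ, r ≤ n → ∀ P : Set (Hyper n r), IsProperty P → IsUpperSet P →
        P.Nonempty → P ≠ Set.univ →
          width ε P ≤ C * (Real.log n) ^ (-((r : ℝ) / ((r : ℝ) - 1)))) ∧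
      (fun n : ℕ => maxWidth ε n r) =Θ[Filter.atTop]
        (fun n : ℕ => (Real.log n) ^ (-((r : ℝ) / ((r : ℝ) - 1))))) ∧
    (∀ r n : ℕ, 2 ≤ r → r ≤ n → ∀ P : Set (Hyper n r), IsProperty P → ∀ p : ℝ, 0 < p → p < 1 →
      1 / (3136 * r) * (mu p P * (1 - mu p P)) * (Real.log n) ^ ((r : ℝ) / ((r : ℝ) - 1)) ≤
        infl p P) := by
  have hhalf : ∀ n : ℕ, (Real.log n) ^ (-(((2 : ℕ) : ℝ) / (((2 : ℕ) : ℝ) - 1))) =
      1 / (Real.log n) ^ 2 := by
    intro n
    have he : (-(((2 : ℕ) : ℝ) / (((2 : ℕ) : ℝ) - 1))) = -(2 : ℝ) := by norm_num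
    rw [he, Real.rpow_neg (Real.log_natCast_nonneg n), Real.rpow_two, one_div]
  refine ⟨fun r n hr hn ε hε hε2 => ⟨fun P hP hup hne hnu => upper r n hr hn P hP hup hne hnu ε hε hε2,
    ?_, greatest r n hr hn ε⟩, fun ε hε hε2 => ⟨⟨6272 * (2 : ℕ) * Real.log (1 / ε),
      fun n hn P hP hup hne hnu => ?_⟩, ?_⟩, fun r hr ε hε hε2 => ⟨⟨6272 * r * Real.log (1 / ε),
      fun n hn P hP hup hne hnu => upper r n (by omega) hn P hP hup hne hnu ε hε hε2⟩,
      theta r (by omega) ε hε hε2⟩, fun r n hr hn P hP p hp0 hp1 => ?_⟩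
  · obtain ⟨P, h1, h2, h3, h4, h5⟩ := width_lower r n hr hn
    exact ⟨P, h1, h2, h3, h4, h5 ε hε hε2⟩
  · have h := upper 2 n le_rfl hn P hP hup hne hnu ε hε hε2
    rw [hhalf, mul_one_div] at h
    exact h
  · have h := theta 2 le_rfl ε hε hε2
    simp only [hhalf] at h
    exact h
  · have h := infl_ineq hr hn P hP p hp0 hp1
    have hn2 : (2 : ℝ) ≤ n := by exact_mod_cast hr.trans hn
    have hL : 0 < Real.log n := Real.log_pos (by linarith)
    have hr0 : (0 : ℝ) < r := by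
      have : 0 < r := by omega
      exact_mod_cast this
    have hLr : 0 < (Real.log n) ^ ((r : ℝ) / ((r : ℝ) - 1)) := Real.rpow_pos_of_pos hL _
    rw [Real.rpow_neg hL.le] at h
    have h2 := mul_le_mul_of_nonneg_right h
      (show 0 ≤ 1 / (3136 * (r : ℝ)) * (Real.log n) ^ ((r : ℝ) / ((r : ℝ) - 1)) by positivity)
    refine le_trans (le_of_eq ?_) (h2.trans (le_of_eq ?_))
    · ring
    · field_simp

end Vale.Agent.Results.P063.ExactOrder
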