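import Vale.Agent.P063.Final
import Vale.Agent.P063.Bonami

/-!
# P063: the Friedgut–Kalai threshold-width conjecture

Full affirmative answer to Q1 (graph properties, width `O((log n)^{-2})`) and to Q2
(`r`-uniform hypergraph properties, width `O((log n)^{-r/(r-1)})`).
-/

namespace Vale.Agent.Results.P063.FriedgutKalai

open _root_.P063

theorem main (r n : ℕ) (hr : 2 ≤ r) (hn : r ≤ n) (P : Set (Hyper n r)) (hP : IsProperty P)
    (hup : IsUpperSet P) (hne : P.Nonempty) (hnu : P ≠ Set.univ) (ε : ℝ) (hε : 0 < ε)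
    (hε2 : ε < 1 / 2) :
    width ε P ≤ 6272 * r * Real.log (1 / ε) * (Real.log n) ^ (-((r : ℝ) / ((r : ℝ) - 1))) :=
  width_final hr hn (fun p hp0 hp1 d 𝒜 h𝒜 c => bonami p hp0 hp1 d 𝒜 h𝒜 c) P hP hup hne hnu ε hε hε2

/-- First part: a quantitative bound for all `r ≥ 2`, all `n ≥ r` and all nontrivial increasing
`r`-uniform hypergraph properties.  Second part: Q1 as posed.  Third part: Q2 as posed. -/
theorem result :
    (∀ r n : ℕ, 2 ≤ r → r ≤ n → ∀ P : Set (Hyper n r), IsProperty P → IsUpperSet P →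
      P.Nonempty → P ≠ Set.univ → ∀ ε : ℝ, 0 < ε → ε < 1 / 2 →
        width ε P ≤ 6272 * r * Real.log (1 / ε) *
          (Real.log n) ^ (-((r : ℝ) / ((r : ℝ) - 1)))) ∧
    (∀ ε : ℝ, 0 < ε → ε < 1 / 2 → ∃ C : ℝ, ∀ n : ℕ, 2 ≤ n → ∀ P : Set (Hyper n 2),
      IsProperty P → IsUpperSet P → P.Nonempty → P ≠ Set.univ →
        width ε P ≤ C / (Real.log n) ^ 2) ∧
    (∀ r : ℕ, 3 ≤ r → ∀ ε : ℝ, 0 < ε → ε < 1 / 2 → ∃ C : ℝ, ∀ n : ℕ, r ≤ n →
      ∀ P : Set (Hyper n r), IsProperty P → IsUpperSet P → P.Nonempty → P ≠ Set.univ →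
        width ε P ≤ C * (Real.log n) ^ (-((r : ℝ) / ((r : ℝ) - 1)))) := by
  refine ⟨fun r n hr hn P hP hup hne hnu ε hε hε2 => main r n hr hn P hP hup hne hnu ε hε hε2,
    fun ε hε hε2 => ⟨6272 * (2 : ℕ) * Real.log (1 / ε), fun n hn P hP hup hne hnu => ?_⟩,
    fun r hr ε hε hε2 => ⟨6272 * r * Real.log (1 / ε), fun n hn P hP hup hne hnu =>
      main r n (by omega) hn P hP hup hne hnu ε hε hε2⟩⟩
  have h := main 2 n le_rfl hn P hP hup hne hnu ε hε hε2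
  have hn2 : (2 : ℝ) ≤ n := by exact_mod_cast hn
  have hL : 0 < Real.log n := Real.log_pos (by linarith)
  have he : (-(((2 : ℕ) : ℝ) / (((2 : ℕ) : ℝ) - 1))) = -(2 : ℝ) := by norm_num
  rw [he, Real.rpow_neg hL.le, Real.rpow_two, ← div_eq_mul_inv] at h
  exact h

end Vale.Agent.Results.P063.FriedgutKalai
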